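import Mathlib

/-!
# One-coordinate inequality of the quenched joint reverse-Lipschitz lemma, exponents (16, 8)
-/

namespace Vale.Agent.P331.H231

lemma pow8_add {A E : ℝ} (hA : 0 ≤ A) (hE : 0 ≤ E) : A ^ 8 + 8 * A ^ 7 * E ≤ (A + E) ^ 8 := by
  have : (A + E) ^ 8 = A ^ 8 + 8 * A ^ 7 * E +
    (28 * A ^ 6 * E ^ 2 + 56 * A ^ 5 * E ^ 3 + 70 * A ^ 4 * E ^ 4 +
    56 * A ^ 3 * E ^ 5 + 28 * A ^ 2 * E ^ 6 + 8 * A * E ^ 7 + E ^ 8) := by ring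
  rw [this]
  have : 0 ≤ 28 * A ^ 6 * E ^ 2 + 56 * A ^ 5 * E ^ 3 + 70 * A ^ 4 * E ^ 4 +
    56 * A ^ 3 * E ^ 5 + 28 * A ^ 2 * E ^ 6 + 8 * A * E ^ 7 + E ^ 8 := by positivity
  linarith

lemma pow_lip {u w : ℝ} (hw0 : 0 ≤ w) (hwu : w ≤ u) (hu1 : u ≤ 1) (n : ℕ) :
    u ^ (n + 1) ≤ w ^ (n + 1) + (n + 1) * (u - w) := by
  have hu0 : 0 ≤ u := hw0.trans hwu
  have hD0 : 0 ≤ u - w := by linarith
  have hw1 : w ≤ 1 := hwu.trans hu1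
  induction n with
  | zero => simp
  | succ n ih =>
    have hun : u ^ (n + 1) ≤ 1 := pow_le_one₀ hu0 hu1
    have h3 : u ^ (n + 1) * (u - w) ≤ 1 * (u - w) := by gcongr
    have h4 : w * u ^ (n + 1) ≤ w * (w ^ (n + 1) + (n + 1) * (u - w)) := by gcongr
    have h5 : w * ((n + 1 : ℝ) * (u - w)) ≤ 1 * ((n + 1 : ℝ) * (u - w)) := by gcongr
    have e1 : u ^ (n + 1 + 1) = u ^ (n + 1) * (u - w) + w * u ^ (n + 1) := by ring
    have e2 : w ^ (n + 1 + 1) = w * w ^ (n + 1) := by ring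
    rw [e1, e2]
    push_cast
    rw [mul_add] at h4
    linarith

lemma bern (n : ℕ) {d : ℝ} (hd0 : 0 ≤ d) (hd1 : d ≤ 1) :
    (1 - d) ^ n ≤ 1 - n * d + (n * (n - 1) / 2 : ℝ) * d ^ 2 := by
  induction n with
  | zero => simp
  | succ n ih =>
    rw [pow_succ]
    have h3 : (1 - d) ^ n * (1 - d) ≤
        (1 - n * d + (n * (n - 1) / 2 : ℝ) * d ^ 2) * (1 - d) := by
      have : 0 ≤ 1 - d := by linarith
      gcongr
    refine h3.trans ?_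
    push_cast
    have h4 : 0 ≤ (n * (n - 1) / 2 : ℝ) * d ^ 3 := by
      rcases Nat.eq_zero_or_pos n with h0 | h0
      · simp [h0]
      · have h1 : (1 : ℝ) ≤ n := by exact_mod_cast h0
        have : 0 ≤ (n : ℝ) - 1 := by linarith
        positivity
    nlinarith

lemma chain8 {θ x : ℝ} (hθ0 : 0 ≤ θ) (hθ1 : 0 ≤ 1 - θ) (hx : 0 ≤ x) :
    ((1 - θ) + θ * x) ^ 8 + θ * (1 - θ) * (x ^ 4 - 1) ^ 2 ≤ (1 - θ) + θ * x ^ 8 := by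
  have c1 : ((1 - θ) + θ * x) ^ 2 ≤ (1 - θ) + θ * x ^ 2 := by
    nlinarith [mul_nonneg (mul_nonneg hθ0 hθ1) (sq_nonneg (x - 1))]
  have c2 : ((1 - θ) + θ * x ^ 2) ^ 2 ≤ (1 - θ) + θ * x ^ 4 := by
    nlinarith [mul_nonneg (mul_nonneg hθ0 hθ1) (sq_nonneg (x ^ 2 - 1))]
  have c0 : 0 ≤ (1 - θ) + θ * x := by positivity
  have c3 : ((1 - θ) + θ * x) ^ 4 ≤ (1 - θ) + θ * x ^ 4 := by
    calc ((1 - θ) + θ * x) ^ 4 = (((1 - θ) + θ * x) ^ 2) ^ 2 := by ring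
      _ ≤ ((1 - θ) + θ * x ^ 2) ^ 2 := by gcongr
      _ ≤ _ := c2
  calc ((1 - θ) + θ * x) ^ 8 + θ * (1 - θ) * (x ^ 4 - 1) ^ 2
      = (((1 - θ) + θ * x) ^ 4) ^ 2 + θ * (1 - θ) * (x ^ 4 - 1) ^ 2 := by ring
    _ ≤ ((1 - θ) + θ * x ^ 4) ^ 2 + θ * (1 - θ) * (x ^ 4 - 1) ^ 2 := by gcongr
    _ = (1 - θ) + θ * x ^ 8 := by ring

lemma r4 {r : ℝ} (hr : 0 ≤ r) : (r - 1) ^ 2 ≤ ((r ^ 2) ^ 4 - 1) ^ 2 := by
  have : ((r ^ 2) ^ 4 - 1) = (r - 1) * ((r + 1) * (r ^ 2 + 1) * (r ^ 4 + 1)) := by ring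
  rw [this, mul_pow]
  have h1 : 1 ≤ (r + 1) * (r ^ 2 + 1) * (r ^ 4 + 1) := by
    have : (r + 1) * (r ^ 2 + 1) * (r ^ 4 + 1) = 1 + (r + r^2 + r^3 + r^4 + r^5 + r^6 + r^7) := by
      ring
    rw [this]
    have : 0 ≤ r + r^2 + r^3 + r^4 + r^5 + r^6 + r^7 := by positivity
    linarith
  have h2 : 1 ≤ ((r + 1) * (r ^ 2 + 1) * (r ^ 4 + 1)) ^ 2 := one_le_pow₀ h1
  nlinarith [sq_nonneg (r - 1)]

lemma quad1 {r s : ℝ} (hs0 : 0 ≤ s) (hs1 : s ≤ 1) :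
    (1 - r * s) ^ 2 ≤ 8 * (r - 1) ^ 2 + 8 * (r - s) ^ 2 := by
  have e1 : 1 - r * s = (r - s) + (1 + s) * (1 - r) := by ring
  have e2 : (1 + s) ^ 2 ≤ 4 := by nlinarith
  have e3 : (1 - r * s) ^ 2 ≤ 2 * (r - s) ^ 2 + 2 * ((1 + s) ^ 2 * (1 - r) ^ 2) := by
    rw [e1]
    nlinarith [sq_nonneg ((r - s) - (1 + s) * (1 - r))]
  have e4 : (1 + s) ^ 2 * (1 - r) ^ 2 ≤ 4 * (1 - r) ^ 2 := by gcongr
  nlinarith [sq_nonneg (r - s)]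

lemma quad2 {r s : ℝ} (hs0 : 0 ≤ s) (hs1 : s ≤ 1) :
    (1 - s ^ 2) ^ 2 ≤ 8 * (r - 1) ^ 2 + 8 * (r - s) ^ 2 := by
  have e1 : 1 - s ^ 2 = (1 + s) * ((r - s) + (1 - r)) := by ring
  rw [e1, mul_pow]
  have e2 : (1 + s) ^ 2 ≤ 4 := by nlinarith
  have e3 : ((r - s) + (1 - r)) ^ 2 ≤ 2 * (r - 1) ^ 2 + 2 * (r - s) ^ 2 := by
    nlinarith [sq_nonneg ((r - s) - (1 - r))]
  calc (1 + s) ^ 2 * ((r - s) + (1 - r)) ^ 2 ≤ 4 * (2 * (r - 1) ^ 2 + 2 * (r - s) ^ 2) := by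
        gcongr
    _ = _ := by ring

/-- the part of the inequality which does not involve `θ` -/
lemma part {η a b lam r s M : ℝ} (hη0 : 0 ≤ η) (hη : η ≤ 1 / 1200) (hlam : 4 ≤ lam)
    (ha : 0 < a) (ha1 : a ≤ 1) (hb : 0 ≤ b) (hb1 : b ≤ 1) (hs0 : 0 < s) (hs1 : s ≤ 1)
    (hr0 : 0 ≤ r) (hss : s ^ 2 = a) (hrs : r * s = b)
    (hM : M ≤ 1 + (1 - a)) :
    η * (16 * (1 - b) * M - 1 + b ^ 16 * max 1 (1 / (lam * a) ^ 8)) ≤
      15 / 16 * (((r ^ 2) ^ 4 - 1) ^ 2 + 3 * (r - s) ^ 2) := by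
  have h1a : 0 ≤ 1 - a := by linarith
  have h1b : 0 ≤ 1 - b := by linarith
  have hx4 := r4 hr0
  obtain ⟨X, hX⟩ : ∃ X : ℝ, X = ((r ^ 2) ^ 4 - 1) ^ 2 := ⟨_, rfl⟩
  have hm9 : 16 * (1 - b) * M ≤ 16 * (1 - b) * (1 + (1 - a)) := by gcongr
  rcases le_or_gt 1 (lam * a) with hla | hla
  · -- case lam a >= 1
    have hd := quad1 (r := r) hs0.le hs1
    rw [hrs] at hd
    have he := quad2 (r := r) hs0.le hs1
    rw [hss] at he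
    have hmax : max 1 (1 / (lam * a) ^ 8) = 1 := by
      apply max_eq_left
      rw [div_le_one (by positivity)]
      exact one_le_pow₀ hla
    rw [hmax, mul_one]
    have h2 : b ^ 16 ≤ 1 - 16 * (1 - b) + 120 * (1 - b) ^ 2 := by
      have := bern 16 h1b (by linarith)
      have hb' : 1 - (1 - b) = b := by ring
      rw [hb'] at this
      norm_num at this
      linarith
    have e1 : 16 * (1 - b) * M - 1 + b ^ 16 ≤ 8 * (1 - a) ^ 2 + 128 * (1 - b) ^ 2 := by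
      have e0 : 16 * (1 - b) * (1 + (1 - a)) = 16 * (1 - b) + 16 * ((1 - b) * (1 - a)) := by ring
      have e00 : 2 * ((1 - b) * (1 - a)) ≤ (1 - a) ^ 2 + (1 - b) ^ 2 := by
        linarith [sq_nonneg ((1 - a) - (1 - b)), show ((1 - a) - (1 - b)) ^ 2 =
          (1 - a) ^ 2 + (1 - b) ^ 2 - 2 * ((1 - b) * (1 - a)) by ring]
      linarith
    have h6 : η * (16 * (1 - b) * M - 1 + b ^ 16) ≤
        1 / 1200 * (8 * (1 - a) ^ 2 + 128 * (1 - b) ^ 2) := by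
      calc η * (16 * (1 - b) * M - 1 + b ^ 16) ≤
            η * (8 * (1 - a) ^ 2 + 128 * (1 - b) ^ 2) := mul_le_mul_of_nonneg_left e1 hη0
        _ ≤ _ := mul_le_mul_of_nonneg_right hη (by positivity)
    rw [← hX] at hx4 ⊢
    linarith [sq_nonneg (r - 1), sq_nonneg (r - s)]
  · -- case lam a < 1
    have ha4 : a < 1 / 4 := by nlinarith
    have hs2 : s < 1 / 2 := by
      by_contra h
      push Not at h
      nlinarith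
    obtain ⟨x, hx⟩ : ∃ x : ℝ, x = r ^ 2 := ⟨_, rfl⟩
    have hx0 : 0 ≤ x := by rw [hx]; positivity
    have hab : b ^ 16 / a ^ 8 = x ^ 8 := by
      rw [hx, ← hrs, ← hss]
      field_simp
    have hmax : b ^ 16 * max 1 (1 / (lam * a) ^ 8) ≤ 1 + x ^ 8 := by
      rcases max_choice 1 (1 / (lam * a) ^ 8) with h | h
      · rw [h, mul_one]
        have h1 : b ^ 16 ≤ 1 := pow_le_one₀ hb hb1
        have h2 : 0 ≤ x ^ 8 := by positivity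
        linarith
      · rw [h]
        have e1 : b ^ 16 * (1 / (lam * a) ^ 8) ≤ b ^ 16 * (1 / a ^ 8) := by
          have : a ≤ lam * a := by nlinarith
          gcongr
        have e2 : b ^ 16 * (1 / a ^ 8) = x ^ 8 := by rw [mul_one_div, hab]
        linarith
    have h1 : 16 * (1 - b) * M ≤ 32 := by
      refine hm9.trans ?_
      calc 16 * (1 - b) * (1 + (1 - a)) ≤ 16 * 1 * (1 + 1) := by
            gcongr <;> linarith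
        _ = 32 := by norm_num
    have h2 : η * (16 * (1 - b) * M - 1 + b ^ 16 * max 1 (1 / (lam * a) ^ 8)) ≤
        1 / 1200 * (32 + x ^ 8) := by
      calc η * (16 * (1 - b) * M - 1 + b ^ 16 * max 1 (1 / (lam * a) ^ 8)) ≤
            η * (32 + x ^ 8) := by
              apply mul_le_mul_of_nonneg_left _ hη0
              linarith
        _ ≤ _ := mul_le_mul_of_nonneg_right hη (by positivity)
    have h3 : 3 / 16 ≤ (r - 1) ^ 2 + 3 * (r - s) ^ 2 := by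
      have e1 : (r - 1) ^ 2 + 3 * (r - s) ^ 2 = 1 / 4 * (4 * r - 1 - 3 * s) ^ 2 +
        3 / 4 * (1 - s) ^ 2 := by ring
      have e2 : (1 / 2 : ℝ) ^ 2 ≤ (1 - s) ^ 2 := by
        apply pow_le_pow_left₀ (by norm_num)
        linarith
      rw [e1]
      linarith [sq_nonneg (4 * r - 1 - 3 * s)]
    have h4 : x ^ 8 ≤ 2 * (x ^ 4 - 1) ^ 2 + 2 := by
      linarith [sq_nonneg (x ^ 4 - 2), show 2 * (x ^ 4 - 1) ^ 2 + 2 - x ^ 8 = (x ^ 4 - 2) ^ 2 by ring]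
    rw [← hx] at hx4 ⊢
    linarith [sq_nonneg (x ^ 4 - 1), sq_nonneg (r - s)]

/-- the convexity part -/
lemma part2 {θ η a b r s m : ℝ} (hθ0 : 0 ≤ θ) (hθ : θ ≤ 1 / 16) (hη0 : 0 ≤ η)
    (hη : η ≤ 1 / 1200) (hb : 0 ≤ b) (hb1 : b ≤ 1)
    (hss : s ^ 2 = a) (hrs : r * s = b) (hm : m = 1 - θ * (1 - a))
    (hm1 : m ≤ 1) (hmp : 0 < m) :
    (1 - θ * (1 - η) * (1 - b)) ^ 16 / m ^ 8 + θ * (15 / 16 * (((r ^ 2) ^ 4 - 1) ^ 2 +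
      3 * (r - s) ^ 2)) ≤ (1 - θ) + θ * (r ^ 2) ^ 8 + θ * (η * (16 * (1 - b) * (1 / m ^ 8))) := by
  obtain ⟨u, hu⟩ : ∃ u : ℝ, u = 1 - θ * (1 - η) * (1 - b) := ⟨_, rfl⟩
  obtain ⟨w, hw⟩ : ∃ w : ℝ, w = 1 - θ * (1 - b) := ⟨_, rfl⟩
  obtain ⟨x, hxr⟩ : ∃ x : ℝ, x = r ^ 2 := ⟨_, rfl⟩
  rw [← hu, ← hxr]
  have hx0 : 0 ≤ x := by rw [hxr]; positivity
  have h1b : 0 ≤ 1 - b := by linarith
  have hw1 : w ≤ 1 := by
    rw [hw]
    linarith [mul_nonneg hθ0 h1b]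
  have hw0 : 15 / 16 ≤ w := by
    rw [hw]
    linarith [mul_le_mul hθ (show 1 - b ≤ 1 by linarith) h1b (by norm_num : (0:ℝ) ≤ 1 / 16)]
  have hDe : u - w = θ * η * (1 - b) := by rw [hu, hw]; ring
  have hD0 : 0 ≤ u - w := by rw [hDe]; positivity
  have hu1 : u ≤ 1 := by
    rw [hu]
    have : 0 ≤ θ * (1 - η) * (1 - b) := by
      have : 0 ≤ 1 - η := by linarith
      positivity
    linarith
  have hu0 : 0 ≤ u := by linarith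
  have hθ1 : 0 ≤ 1 - θ := by linarith
  obtain ⟨E, hE⟩ : ∃ E : ℝ, E = θ * (1 - θ) * ((r - s) ^ 2) := ⟨_, rfl⟩
  obtain ⟨A, hA⟩ : ∃ A : ℝ, A = w ^ 2 / m := ⟨_, rfl⟩
  have hE0 : 0 ≤ E := by rw [hE]; positivity
  have hA0 : 0 ≤ A := by rw [hA]; positivity
  have hEn : A + E ≤ (1 - θ) + θ * x := by
    have e1 : (1 - θ) + θ * x - A = E / m := by
      rw [hA, hE, hxr, eq_div_iff hmp.ne', sub_mul, div_mul_cancel₀ _ hmp.ne', hw, hm, ← hrs, ← hss]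
      ring
    have e2 : E ≤ E / m := by
      rw [le_div_iff₀ hmp]
      exact mul_le_of_le_one_right hE0 hm1
    linarith
  have hch := chain8 hθ0 hθ1 hx0
  have hA7 : 3 / 8 ≤ A ^ 7 := by
    have h1 : (15 / 16 : ℝ) ^ 2 ≤ A := by
      rw [hA, le_div_iff₀ hmp]
      calc (15 / 16 : ℝ) ^ 2 * m ≤ (15 / 16 : ℝ) ^ 2 * 1 := by gcongr
        _ ≤ w ^ 2 := by rw [mul_one]; gcongr
    calc (3 / 8 : ℝ) ≤ ((15 / 16 : ℝ) ^ 2) ^ 7 := by norm_num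
      _ ≤ _ := by gcongr
  have hpow : A ^ 8 + 3 * E ≤ ((1 - θ) + θ * x) ^ 8 := by
    have h1 := pow8_add hA0 hE0
    have h2 : (A + E) ^ 8 ≤ ((1 - θ) + θ * x) ^ 8 := by gcongr
    have h3 : 3 * E ≤ 8 * A ^ 7 * E := by
      have : 3 ≤ 8 * A ^ 7 := by linarith
      gcongr
    linarith
  have huw : u ^ 16 / m ^ 8 ≤ A ^ 8 + θ * (η * (16 * (1 - b) * (1 / m ^ 8))) := by
    have h1 : u ^ 16 ≤ w ^ 16 + 16 * (u - w) := by
      have := pow_lip (by linarith) (by linarith : w ≤ u) hu1 15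
      norm_num at this
      exact this
    have h2 : u ^ 16 / m ^ 8 ≤ (w ^ 16 + 16 * (u - w)) / m ^ 8 := by gcongr
    rw [hDe] at h2
    calc u ^ 16 / m ^ 8 ≤ (w ^ 16 + 16 * (θ * η * (1 - b))) / m ^ 8 := h2
      _ = w ^ 16 / m ^ 8 + θ * (η * (16 * (1 - b) * (1 / m ^ 8))) := by ring
      _ = _ := by rw [hA, div_pow, ← pow_mul]
  have hR : θ * (15 / 16 * ((x ^ 4 - 1) ^ 2 + 3 * (r - s) ^ 2)) ≤
      θ * ((1 - θ) * ((x ^ 4 - 1) ^ 2 + 3 * (r - s) ^ 2)) := by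
    have h1 : 0 ≤ (x ^ 4 - 1) ^ 2 + 3 * (r - s) ^ 2 := by positivity
    have h2 : 15 / 16 ≤ 1 - θ := by linarith
    gcongr
  have h3 : θ * ((1 - θ) * ((x ^ 4 - 1) ^ 2 + 3 * (r - s) ^ 2)) =
    θ * (1 - θ) * (x ^ 4 - 1) ^ 2 + 3 * E := by rw [hE]; ring
  linarith

/-- the inverse eighth power of the mean -/
lemma inv8 {θ a m : ℝ} (hθ0 : 0 ≤ θ) (hθ : θ ≤ 1 / 16) (ha : 0 ≤ a) (ha1 : a ≤ 1)
    (hm : m = 1 - θ * (1 - a)) (hmp : 0 < m) : 1 / m ^ 8 ≤ 1 + (1 - a) := by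
  have h1a : 0 ≤ 1 - a := by linarith
  have e2 : 0 ≤ θ * (1 - a) := mul_nonneg hθ0 h1a
  have e3 : θ * (1 - a) ≤ 1 / 16 * (1 - a) := mul_le_mul_of_nonneg_right hθ h1a
  have e1 : 1 - 8 * (θ * (1 - a)) ≤ m ^ 8 := by
    have h0 := one_add_mul_le_pow (a := m - 1) (by linarith) 8
    have h2 : (1 + (m - 1)) = m := by ring
    rw [h2] at h0
    push_cast at h0
    linarith
  have e4 : 1 - (1 - a) / 2 ≤ m ^ 8 := by linarith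
  obtain ⟨y, hy⟩ : ∃ y : ℝ, y = m ^ 8 := ⟨_, rfl⟩
  have hyp : 0 < y := by rw [hy]; exact pow_pos hmp 8
  rw [← hy] at e4 ⊢
  rw [div_le_iff₀ hyp]
  have e5 : (1 + (1 - a)) * (1 - (1 - a) / 2) ≤ (1 + (1 - a)) * y :=
    mul_le_mul_of_nonneg_left e4 (by linarith)
  have e6 : 1 ≤ (1 + (1 - a)) * (1 - (1 - a) / 2) := by
    have : 0 ≤ (1 - a) * a := mul_nonneg h1a ha
    linarith [show (1 + (1 - a)) * (1 - (1 - a) / 2) = 1 + (1 - a) * a / 2 by ring]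
  exact e6.trans e5

lemma combine {θ η P R S T X : ℝ} (hθ0 : 0 ≤ θ)
    (h1 : η * (S - 1 + T) ≤ R) (h2 : P + θ * R ≤ 1 - θ + θ * X + θ * (η * S)) :
    P + η * θ * T ≤ 1 - θ + η * θ + θ * X := by
  have h3 := mul_le_mul_of_nonneg_left h1 hθ0
  have h4 : θ * (η * (S - 1 + T)) = θ * (η * S) - η * θ + η * θ * T := by ring
  rw [h4] at h3
  linarith

lemma rpow8 {a b r s : ℝ} (hs0 : 0 < s) (hss : s ^ 2 = a) (hrs : r * s = b) :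
    b ^ 16 / a ^ 8 = (r ^ 2) ^ 8 := by
  rw [← hrs, ← hss, mul_pow, ← pow_mul, ← pow_mul]
  exact mul_div_cancel_right₀ _ (pow_pos hs0 _).ne'

/-- the normalised one-coordinate inequality -/
theorem scal8 {θ η a b lam : ℝ} (hθ0 : 0 ≤ θ) (hθ : θ ≤ 1 / 16) (hη0 : 0 ≤ η)
    (hη : η ≤ 1 / 1200) (hlam : 4 ≤ lam) (ha : 0 < a) (ha1 : a ≤ 1) (hb : 0 ≤ b) (hb1 : b ≤ 1) :
    (1 - θ * (1 - η) * (1 - b)) ^ 16 / (1 - θ * (1 - a)) ^ 8 +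
        η * θ * (b ^ 16 * max 1 (1 / (lam * a) ^ 8)) ≤
      1 - θ + η * θ + θ * (b ^ 16 / a ^ 8) := by
  have h1a : 0 ≤ 1 - a := by linarith
  have hs0 : 0 < Real.sqrt a := Real.sqrt_pos.2 ha
  have hss : Real.sqrt a ^ 2 = a := Real.sq_sqrt ha.le
  have hs1 : Real.sqrt a ≤ 1 := Real.sqrt_le_one.2 ha1
  have hr0 : 0 ≤ b / Real.sqrt a := div_nonneg hb hs0.le
  have hrs : b / Real.sqrt a * Real.sqrt a = b := div_mul_cancel₀ _ hs0.ne'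
  have hm1 : 1 - θ * (1 - a) ≤ 1 := by
    linarith [mul_nonneg hθ0 h1a]
  have hm0 : 15 / 16 ≤ 1 - θ * (1 - a) := by
    linarith [mul_le_mul hθ (show 1 - a ≤ 1 by linarith) h1a (by norm_num : (0:ℝ) ≤ 1 / 16)]
  have hmp : 0 < 1 - θ * (1 - a) := by linarith
  have hm8 := inv8 hθ0 hθ ha.le ha1 rfl hmp
  have hab := rpow8 hs0 hss hrs
  rw [hab]
  exact combine hθ0 (part hη0 hη hlam ha ha1 hb hb1 hs0 hs1 hr0 hss hrs hm8)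
    (part2 hθ0 hθ hη0 hη hb hb1 hss hrs rfl hm1 hmp)

end Vale.Agent.P331.H231
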