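import Mathlib

/-!
# One-coordinate inequality of the quenched joint reverse-Lipschitz lemma, exponents (16, 7)
-/

namespace Vale.Agent.P331.H231

lemma bernX (n : ℕ) {X : ℝ} (hX : 0 ≤ X) : X ^ n * (1 - n * (X - 1)) ≤ 1 := by
  induction n with
  | zero => simp
  | succ n ih =>
    refine le_trans ?_ ih
    have e : X ^ (n + 1) * (1 - ((n + 1 : ℕ) : ℝ) * (X - 1)) =
        X ^ n * (1 - n * (X - 1)) - X ^ n * ((n + 1) * (X - 1) ^ 2) := by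
      push_cast
      ring
    rw [e]
    have : 0 ≤ X ^ n * ((n + 1) * (X - 1) ^ 2) := by positivity
    linarith

lemma tang8 {z r : ℝ} (hz : 0 ≤ z) (hr : 0 ≤ r) : 8 * r ^ 7 * z - 7 * r ^ 8 ≤ z ^ 8 := by
  have e : z ^ 8 - (8 * r ^ 7 * z - 7 * r ^ 8) = (z - r) ^ 2 *
      (z ^ 6 + 2 * z ^ 5 * r + 3 * z ^ 4 * r ^ 2 + 4 * z ^ 3 * r ^ 3 + 5 * z ^ 2 * r ^ 4 +
        6 * z * r ^ 5 + 7 * r ^ 6) := by ring
  have : 0 ≤ (z - r) ^ 2 *
      (z ^ 6 + 2 * z ^ 5 * r + 3 * z ^ 4 * r ^ 2 + 4 * z ^ 3 * r ^ 3 + 5 * z ^ 2 * r ^ 4 +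
        6 * z * r ^ 5 + 7 * r ^ 6) := by positivity
  linarith

lemma tang87 {x y r : ℝ} (hx : 0 ≤ x) (hy : 0 < y) (hr : 0 ≤ r) :
    8 * r ^ 7 * x - 7 * r ^ 8 * y ≤ x ^ 8 / y ^ 7 := by
  have h := mul_le_mul_of_nonneg_right (tang8 (z := x / y) (by positivity) hr) hy.le
  have e1 : (8 * r ^ 7 * (x / y) - 7 * r ^ 8) * y = 8 * r ^ 7 * x - 7 * r ^ 8 * y := by
    field_simp
  have e2 : (x / y) ^ 8 * y = x ^ 8 / y ^ 7 := by
    field_simp
  rw [e1, e2] at h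
  exact h

lemma jens {α β x x' y y' : ℝ} (hα : 0 ≤ α) (hβ : 0 ≤ β) (hx : 0 ≤ x) (hx' : 0 ≤ x')
    (hy : 0 < y) (hy' : 0 < y') (hM : 0 < α * y + β * y') :
    (α * x + β * x') ^ 8 / (α * y + β * y') ^ 7 ≤ α * (x ^ 8 / y ^ 7) + β * (x' ^ 8 / y' ^ 7) := by
  obtain ⟨S, hS⟩ : ∃ S : ℝ, S = α * x + β * x' := ⟨_, rfl⟩
  obtain ⟨M, hMe⟩ : ∃ M : ℝ, M = α * y + β * y' := ⟨_, rfl⟩
  rw [← hS, ← hMe]
  rw [← hMe] at hM
  have hS0 : 0 ≤ S := by rw [hS]; positivity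
  have hr : 0 ≤ S / M := by positivity
  have h1 := mul_le_mul_of_nonneg_left (tang87 hx hy hr) hα
  have h2 := mul_le_mul_of_nonneg_left (tang87 hx' hy' hr) hβ
  have e : S ^ 8 / M ^ 7 = α * (8 * (S / M) ^ 7 * x - 7 * (S / M) ^ 8 * y) +
      β * (8 * (S / M) ^ 7 * x' - 7 * (S / M) ^ 8 * y') := by
    have e1 : α * (8 * (S / M) ^ 7 * x - 7 * (S / M) ^ 8 * y) +
      β * (8 * (S / M) ^ 7 * x' - 7 * (S / M) ^ 8 * y') =
      8 * (S / M) ^ 7 * S - 7 * (S / M) ^ 8 * M := by rw [hS, hMe]; ring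
    rw [e1]
    field_simp
    ring
  rw [e]
  linarith

/-- the first case -/
lemma case1 {t e b X : ℝ} (ht0 : 0 ≤ t) (ht : t ≤ 1 / 8) (he0 : 0 ≤ e) (he : e ≤ 1 / 1000)
    (hb : 0 ≤ b) (hb1 : b ≤ 1) (hX : 0 ≤ X)
    (hXe : (1 - t) * X = (1 - t * (1 - e) * (1 - b)) ^ 2 - t * b ^ 2) :
    (1 - t) * X ^ 8 ≤ 1 - t + e * t * (1 - b ^ 16) := by
  have hP := bernX 8 hX
  have hQ := bernX 16 hb
  have hP0 : 0 ≤ X ^ 8 := by positivity
  have hQ0 : 0 ≤ b ^ 16 := by positivity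
  obtain ⟨P, hPd⟩ : ∃ P : ℝ, P = X ^ 8 := ⟨_, rfl⟩
  obtain ⟨Q, hQd⟩ : ∃ Q : ℝ, Q = b ^ 16 := ⟨_, rfl⟩
  rw [← hPd] at hP hP0 ⊢
  rw [← hQd] at hQ hQ0 ⊢
  obtain ⟨B, hB⟩ : ∃ B : ℝ, B = 1 - b := ⟨_, rfl⟩
  obtain ⟨D, hD⟩ : ∃ D : ℝ, D = (1 - t) * X - (1 - t) := ⟨_, rfl⟩
  have hbB : b = 1 - B := by linarith
  have hB0 : 0 ≤ B := by linarith
  have hB1 : B ≤ 1 := by linarith
  have hDe : D = 2 * e * t * B - (t - t ^ 2 * (1 - e) ^ 2) * B ^ 2 := by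
    rw [hD, hXe, hbB]; ring
  have h1t : 0 < 1 - t := by linarith
  have hB2 : 0 ≤ B ^ 2 := by positivity
  have het : 0 ≤ e * t := by positivity
  have hc : 7 / 8 * t ≤ t - t ^ 2 * (1 - e) ^ 2 := by
    have h1 : (1 - e) ^ 2 ≤ 1 := by nlinarith
    have h2 : t ^ 2 * (1 - e) ^ 2 ≤ t ^ 2 * 1 := by gcongr
    nlinarith
  have hcB : 7 / 8 * t * B ^ 2 ≤ (t - t ^ 2 * (1 - e) ^ 2) * B ^ 2 :=
    mul_le_mul_of_nonneg_right hc hB2
  have hetB : 0 ≤ e * t * B := by positivity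
  have hD2 : D ≤ 2 * (e * t * B) - 7 / 8 * t * B ^ 2 := by linarith
  have hQ' : Q * (1 + 16 * B) ≤ 1 := by
    have : Q * (1 + 16 * B) = Q * (1 - ((16 : ℕ) : ℝ) * (b - 1)) := by rw [hbB]; push_cast; ring
    rw [this]; exact hQ
  have hP' : P * ((1 - t) - 8 * D) ≤ 1 - t := by
    have h := mul_le_mul_of_nonneg_left hP h1t.le
    have e1 : (1 - t) * (P * (1 - ((8 : ℕ) : ℝ) * (X - 1))) = P * ((1 - t) - 8 * D) := by
      rw [hD]; push_cast; ring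
    rw [e1] at h
    linarith
  have hQ1 : Q ≤ 1 := by
    have : 0 ≤ Q * (16 * B) := by positivity
    linarith
  -- upper bound for Q through the linear weight
  rcases le_or_gt D 0 with hDn | hDp
  · have h1 : P * (1 - t) ≤ 1 - t := by
      have : 0 ≤ P * (-D) := mul_nonneg hP0 (by linarith)
      linarith
    have h2 : 0 ≤ e * t * (1 - Q) := mul_nonneg het (by linarith)
    linarith
  · -- D > 0
    have hW : 0 < 1 + 16 * B := by linarith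
    have hY : 0 < (1 - t) - 8 * D := by
      have h3 : e * t * B ≤ 1 / 1000 * (1 / 8) * 1 := by gcongr
      have h4 : 0 ≤ t * B ^ 2 := by positivity
      linarith
    have hR : 16 * (e * t * B) ≤ e * t * (1 - Q) * (1 + 16 * B) := by
      have h5 : e * t * (Q * (1 + 16 * B)) ≤ e * t * 1 := by gcongr
      have h6 : e * t * (1 - Q) * (1 + 16 * B) = e * t * (1 + 16 * B) -
        e * t * (Q * (1 + 16 * B)) := by ring
      rw [h6]
      linarith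
    -- the claim times the two positive weights
    have hfin : (1 - t) * (1 - t) * (1 + 16 * B) ≤
        (1 - t + e * t * (1 - Q)) * ((1 - t) - 8 * D) * (1 + 16 * B) := by
      have h7 : 16 * (e * t * B) * ((1 - t) - 8 * D) ≤
          e * t * (1 - Q) * (1 + 16 * B) * ((1 - t) - 8 * D) := by gcongr
      have h8 : (1 - t + e * t * (1 - Q)) * ((1 - t) - 8 * D) * (1 + 16 * B) =
        (1 - t) * ((1 - t) - 8 * D) * (1 + 16 * B) +
          e * t * (1 - Q) * (1 + 16 * B) * ((1 - t) - 8 * D) := by ring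
      rw [h8]
      have h9 : 0 ≤ (1 - t) * (16 * (e * t * B) - 8 * D * (1 + 16 * B)) -
          128 * (e * t * B) * D := by
        have h10 : D * (1 + 16 * B) ≤ 2 * (e * t * B) - 3 / 4 * t * B ^ 2 := by
          have h11 : D * B ≤ 2 * (e * t * B) * B := by
            have : D ≤ 2 * (e * t * B) := by
              have : 0 ≤ 7 / 8 * t * B ^ 2 := by positivity
              linarith
            gcongr
          have h12 : e * (t * B ^ 2) ≤ 1 / 1000 * (t * B ^ 2) := by gcongr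
          have h13 : e * t * B * B = e * (t * B ^ 2) := by ring
          have h130 : 0 ≤ t * B ^ 2 := by positivity
          linarith
        have h14 : (e * t * B) * D ≤ 1 / 4000000 * (t * B ^ 2) := by
          have : D ≤ 2 * (e * t * B) := by
            have : 0 ≤ 7 / 8 * t * B ^ 2 := by positivity
            linarith
          have h15 : (e * t * B) * D ≤ (e * t * B) * (2 * (e * t * B)) := by gcongr
          have h16 : (e * t * B) * (2 * (e * t * B)) = 2 * (e * e * t) * (t * B ^ 2) := by ring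
          have h17 : 2 * (e * e * t) * (t * B ^ 2) ≤ 2 * (1 / 1000 * (1 / 1000) * (1 / 8)) *
            (t * B ^ 2) := by gcongr
          linarith
        have h18 : (1 - t) * (16 * (e * t * B) - 8 * (D * (1 + 16 * B))) ≥
            (1 - t) * (6 * t * B ^ 2) := by
          apply mul_le_mul_of_nonneg_left _ h1t.le
          linarith
        have h19 : 7 / 8 * (6 * t * B ^ 2) ≤ (1 - t) * (6 * t * B ^ 2) := by
          have : (7 / 8 : ℝ) ≤ 1 - t := by linarith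
          gcongr
        have h20 : 0 ≤ t * B ^ 2 := by positivity
        linarith
      linarith
    have hfin2 : (1 - t) * (1 - t) ≤ (1 - t + e * t * (1 - Q)) * ((1 - t) - 8 * D) :=
      le_of_mul_le_mul_right hfin hW
    have h21 : (1 - t) * P * ((1 - t) - 8 * D) ≤
        (1 - t + e * t * (1 - Q)) * ((1 - t) - 8 * D) := by
      have : (1 - t) * (P * ((1 - t) - 8 * D)) ≤ (1 - t) * (1 - t) := by gcongr
      linarith
    exact le_of_mul_le_mul_right h21 hY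

/-- the second case -/
lemma case2 {t e d b X : ℝ} (ht0 : 0 ≤ t) (ht : t ≤ 1 / 8) (he0 : 0 ≤ e) (he : e ≤ 1 / 1000)
    (hd : 0 ≤ d) (hde : d ≤ 1 / 1000 * (e * t))
    (hb : 0 ≤ b) (hb1 : b ≤ 1) (hX : 0 ≤ X)
    (hXe : (1 - t) * X = (1 - t * (1 - e) * (1 - b)) ^ 2 - (t - d) * b ^ 2) :
    (1 - t) * X ^ 8 ≤ 1 - t + e * t := by
  have hP := bernX 8 hX
  have hP0 : 0 ≤ X ^ 8 := by positivity
  obtain ⟨P, hPd⟩ : ∃ P : ℝ, P = X ^ 8 := ⟨_, rfl⟩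
  rw [← hPd] at hP hP0 ⊢
  obtain ⟨B, hB⟩ : ∃ B : ℝ, B = 1 - b := ⟨_, rfl⟩
  obtain ⟨D, hD⟩ : ∃ D : ℝ, D = (1 - t) * X - (1 - t) := ⟨_, rfl⟩
  have hbB : b = 1 - B := by linarith
  have hB0 : 0 ≤ B := by linarith
  have hB1 : B ≤ 1 := by linarith
  have hDe : D = 2 * e * t * B - (t - t ^ 2 * (1 - e) ^ 2) * B ^ 2 + d * b ^ 2 := by
    rw [hD, hXe, hbB]; ring
  have h1t : 0 < 1 - t := by linarith
  have hB2 : 0 ≤ B ^ 2 := by positivity
  have het : 0 ≤ e * t := by positivity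
  have hc : 7 / 8 * t ≤ t - t ^ 2 * (1 - e) ^ 2 := by
    have h1 : (1 - e) ^ 2 ≤ 1 := by nlinarith
    have h2 : t ^ 2 * (1 - e) ^ 2 ≤ t ^ 2 * 1 := by gcongr
    nlinarith
  have hcB : 7 / 8 * t * B ^ 2 ≤ (t - t ^ 2 * (1 - e) ^ 2) * B ^ 2 :=
    mul_le_mul_of_nonneg_right hc hB2
  have hdb : d * b ^ 2 ≤ d := by
    have : b ^ 2 ≤ 1 := pow_le_one₀ hb hb1
    exact mul_le_of_le_one_right hd this
  -- 2 e t B - 7/8 t B^2 <= (8/7) e^2 t
  have hq : 2 * e * t * B - 7 / 8 * t * B ^ 2 ≤ 8 / 7 * (e * (e * t)) := by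
    have : 0 ≤ t * (7 * B - 8 * e) ^ 2 := by positivity
    linarith [show t * (7 * B - 8 * e) ^ 2 = 56 * (7 / 8 * t * B ^ 2 - 2 * e * t * B +
      8 / 7 * (e * (e * t))) by ring]
  have he2 : e * (e * t) ≤ 1 / 1000 * (e * t) := by gcongr
  have hD2 : 8 * D ≤ 1 / 50 * (e * t) := by linarith
  have hP' : P * ((1 - t) - 8 * D) ≤ 1 - t := by
    have h := mul_le_mul_of_nonneg_left hP h1t.le
    have e1 : (1 - t) * (P * (1 - ((8 : ℕ) : ℝ) * (X - 1))) = P * ((1 - t) - 8 * D) := by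
      rw [hD]; push_cast; ring
    rw [e1] at h
    linarith
  have h2 : P * ((1 - t) - 1 / 50 * (e * t)) ≤ 1 - t := by
    have : P * ((1 - t) - 1 / 50 * (e * t)) ≤ P * ((1 - t) - 8 * D) := by
      apply mul_le_mul_of_nonneg_left _ hP0
      linarith
    linarith
  have h3 : e * t ≤ 1 / 8000 := by
    have : e * t ≤ 1 / 1000 * (1 / 8) := by gcongr
    linarith
  have hY : 0 < (1 - t) - 1 / 50 * (e * t) := by linarith
  have h4 : (1 - t) * (1 - t) ≤ (1 - t + e * t) * ((1 - t) - 1 / 50 * (e * t)) := by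
    have h5 : (1 - t + e * t) * ((1 - t) - 1 / 50 * (e * t)) = (1 - t) * (1 - t) +
      (49 / 50 * (1 - t) * (e * t) - 1 / 50 * ((e * t) * (e * t))) := by ring
    rw [h5]
    have h6 : 7 / 8 * (e * t) ≤ (1 - t) * (e * t) := by
      have : (7 / 8 : ℝ) ≤ 1 - t := by linarith
      gcongr
    have h7 : (e * t) * (e * t) ≤ 1 / 8000 * (e * t) := by gcongr
    linarith
  have h8 : (1 - t) * P * ((1 - t) - 1 / 50 * (e * t)) ≤
      (1 - t + e * t) * ((1 - t) - 1 / 50 * (e * t)) := by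
    have : (1 - t) * (P * ((1 - t) - 1 / 50 * (e * t))) ≤ (1 - t) * (1 - t) := by gcongr
    linarith
  exact le_of_mul_le_mul_right h8 hY

/-- `x0` is nonnegative -/
lemma x0_nonneg {t e b : ℝ} (ht0 : 0 ≤ t) (ht : t ≤ 1 / 8) (he0 : 0 ≤ e)
    (hb : 0 ≤ b) (hb1 : b ≤ 1) :
    0 ≤ (1 - t * (1 - e) * (1 - b)) ^ 2 - t * b ^ 2 := by
  have h1 : 1 - t * (1 - b) ≤ 1 - t * (1 - e) * (1 - b) := by
    have : 0 ≤ e * (t * (1 - b)) := by
      have : 0 ≤ 1 - b := by linarith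
      positivity
    linarith
  have h2 : 7 / 8 ≤ 1 - t * (1 - b) := by
    have : t * (1 - b) ≤ 1 / 8 * 1 := by
      gcongr
      linarith
    linarith
  have h3 : (7 / 8 : ℝ) ^ 2 ≤ (1 - t * (1 - e) * (1 - b)) ^ 2 := by
    apply pow_le_pow_left₀ (by norm_num)
    linarith
  have h4 : t * b ^ 2 ≤ 1 / 8 * 1 ^ 2 := by gcongr
  linarith

lemma fin1 {P A t e Q R : ℝ} (h1 : P ≤ A + R) (h2 : A ≤ 1 - t + e * t * (1 - Q)) :
    P + e * t * Q ≤ 1 - t + e * t + R := by linarith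

lemma fin2 {P A t e d R : ℝ} (h1 : P ≤ A + (t - d) * R) (h2 : A ≤ 1 - t + e * t) :
    P + d * R ≤ 1 - t + e * t + t * R := by linarith

lemma halfA {t e b a : ℝ} (ht0 : 0 ≤ t) (ht : t ≤ 1 / 8) (he0 : 0 ≤ e) (he : e ≤ 1 / 1000)
    (hb : 0 ≤ b) (hb1 : b ≤ 1) (ha : 0 < a) :
    ((1 - t * (1 - e) * (1 - b)) ^ 2) ^ 8 / ((1 - t) * 1 + t * a) ^ 7 + e * t * b ^ 16 ≤
      1 - t + e * t + t * (b ^ 16 / a ^ 7) := by
  have h1t : 0 < 1 - t := by linarith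
  have hmp : 0 < (1 - t) * 1 + t * a := by positivity
  have hb2 : (0 : ℝ) ≤ b ^ 2 := by positivity
  have hbb : (b ^ 2) ^ 8 = b ^ 16 := by rw [← pow_mul]
  have hx0 := x0_nonneg ht0 ht he0 hb hb1
  have hX0 : 0 ≤ ((1 - t * (1 - e) * (1 - b)) ^ 2 - t * b ^ 2) / (1 - t) := div_nonneg hx0 h1t.le
  have hXe : (1 - t) * (((1 - t * (1 - e) * (1 - b)) ^ 2 - t * b ^ 2) / (1 - t)) =
      (1 - t * (1 - e) * (1 - b)) ^ 2 - t * b ^ 2 := mul_div_cancel₀ _ h1t.ne'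
  have hc := case1 ht0 ht he0 he hb hb1 hX0 hXe
  have hj := jens (α := 1 - t) (β := t)
    (x := ((1 - t * (1 - e) * (1 - b)) ^ 2 - t * b ^ 2) / (1 - t)) (x' := b ^ 2)
    (y := 1) (y' := a) h1t.le ht0 hX0 hb2 one_pos ha hmp
  rw [hXe, sub_add_cancel, hbb, one_pow, div_one] at hj
  exact fin1 hj hc

lemma halfB {t e d b a : ℝ} (ht0 : 0 ≤ t) (ht : t ≤ 1 / 8) (he0 : 0 ≤ e) (he : e ≤ 1 / 1000)
    (hd : 0 ≤ d) (hde : d ≤ 1 / 1000 * (e * t)) (hdt : d ≤ t)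
    (hb : 0 ≤ b) (hb1 : b ≤ 1) (ha : 0 < a) :
    ((1 - t * (1 - e) * (1 - b)) ^ 2) ^ 8 / ((1 - t) * 1 + t * a) ^ 7 + d * (b ^ 16 / a ^ 7) ≤
      1 - t + e * t + t * (b ^ 16 / a ^ 7) := by
  have h1t : 0 < 1 - t := by linarith
  have htd : 0 ≤ t - d := by linarith
  have hb2 : (0 : ℝ) ≤ b ^ 2 := by positivity
  have hmp : 0 < (1 - t) * 1 + (t - d) * a := by positivity
  have hbb : (b ^ 2) ^ 8 = b ^ 16 := by rw [← pow_mul]
  have hx0 : 0 ≤ (1 - t * (1 - e) * (1 - b)) ^ 2 - (t - d) * b ^ 2 := by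
    have h1 := x0_nonneg ht0 ht he0 hb hb1
    have h2 : (t - d) * b ^ 2 ≤ t * b ^ 2 := mul_le_mul_of_nonneg_right (by linarith) hb2
    exact h1.trans (sub_le_sub_left h2 _)
  have hX0 : 0 ≤ ((1 - t * (1 - e) * (1 - b)) ^ 2 - (t - d) * b ^ 2) / (1 - t) :=
    div_nonneg hx0 h1t.le
  have hXe : (1 - t) * (((1 - t * (1 - e) * (1 - b)) ^ 2 - (t - d) * b ^ 2) / (1 - t)) =
      (1 - t * (1 - e) * (1 - b)) ^ 2 - (t - d) * b ^ 2 := mul_div_cancel₀ _ h1t.ne'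
  have hc := case2 ht0 ht he0 he hd hde hb hb1 hX0 hXe
  have hj := jens (α := 1 - t) (β := t - d)
    (x := ((1 - t * (1 - e) * (1 - b)) ^ 2 - (t - d) * b ^ 2) / (1 - t)) (x' := b ^ 2)
    (y := 1) (y' := a) h1t.le htd hX0 hb2 one_pos ha hmp
  rw [hXe, sub_add_cancel, hbb, one_pow, div_one] at hj
  have hle : ((1 - t * (1 - e) * (1 - b)) ^ 2) ^ 8 / ((1 - t) * 1 + t * a) ^ 7 ≤
      ((1 - t * (1 - e) * (1 - b)) ^ 2) ^ 8 / ((1 - t) * 1 + (t - d) * a) ^ 7 := by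
    have h2 : (t - d) * a ≤ t * a := mul_le_mul_of_nonneg_right (by linarith) ha.le
    have h3 : (1 - t) * 1 + (t - d) * a ≤ (1 - t) * 1 + t * a := add_le_add_right h2 _
    exact div_le_div_of_nonneg_left (by positivity) (pow_pos hmp 7)
      (pow_le_pow_left₀ hmp.le h3 7)
  exact fin2 (hle.trans hj) hc

lemma dlem {t e L : ℝ} (ht0 : 0 ≤ t) (he0 : 0 ≤ e) (he : e ≤ 1 / 1000) (hL : 4 ≤ L) :
    0 ≤ e * t / L ^ 7 ∧ e * t / L ^ 7 ≤ 1 / 1000 * (e * t) ∧ e * t / L ^ 7 ≤ t := by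
  have hLp : 0 < L := by linarith
  have hL7 : (1000 : ℝ) ≤ L ^ 7 := by
    calc (1000 : ℝ) ≤ 4 ^ 7 := by norm_num
      _ ≤ L ^ 7 := by gcongr
  have het : 0 ≤ e * t := mul_nonneg he0 ht0
  have h2 : e * t / L ^ 7 ≤ 1 / 1000 * (e * t) := by
    rw [div_le_iff₀ (pow_pos hLp 7)]
    have : 1 / 1000 * (e * t) * 1000 ≤ 1 / 1000 * (e * t) * L ^ 7 := by gcongr
    linarith
  have h1 : e * t ≤ 1 / 1000 * t := mul_le_mul_of_nonneg_right he ht0
  exact ⟨div_nonneg het (pow_pos hLp 7).le, h2, by linarith⟩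

lemma dterm {t e L b a : ℝ} : e * t * b ^ 16 * (1 / (L * a) ^ 7) =
    e * t / L ^ 7 * (b ^ 16 / a ^ 7) := by
  rw [mul_pow, mul_one_div, div_mul_div_comm]

/-- the one-coordinate inequality with exponents `16` and `7` -/
theorem scal7 {t e b a L : ℝ} (ht0 : 0 ≤ t) (ht : t ≤ 1 / 8) (he0 : 0 ≤ e) (he : e ≤ 1 / 1000)
    (hL : 4 ≤ L) (hb : 0 ≤ b) (hb1 : b ≤ 1) (ha : 0 < a) :
    (1 - t * (1 - e) * (1 - b)) ^ 16 / (1 - t * (1 - a)) ^ 7 +
      e * t * b ^ 16 * max 1 (1 / (L * a) ^ 7) ≤ 1 - t + e * t + t * b ^ 16 / a ^ 7 := by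
  have hm : 1 - t * (1 - a) = (1 - t) * 1 + t * a := by ring
  have hu : (1 - t * (1 - e) * (1 - b)) ^ 16 = ((1 - t * (1 - e) * (1 - b)) ^ 2) ^ 8 := by
    rw [← pow_mul]
  have e2 : t * b ^ 16 / a ^ 7 = t * (b ^ 16 / a ^ 7) := mul_div_assoc _ _ _
  rw [hu, hm, e2]
  rcases max_choice 1 (1 / (L * a) ^ 7) with h | h
  · rw [h, mul_one (e * t * b ^ 16)]
    exact halfA ht0 ht he0 he hb hb1 ha
  · rw [h, dterm]
    obtain ⟨h1, h2, h3⟩ := dlem ht0 he0 he hL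
    exact halfB ht0 ht he0 he h1 h2 h3 hb hb1 ha

end Vale.Agent.P331.H231
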