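import Vale.Agent.P331.F.Rows
import Vale.Agent.P331.H231.S167

/-!
# Row A1
-/

namespace Vale.Agent.P331.H231

open Vale.Agent.P331

theorem onec {θ η lam : ℝ} (hθ0 : 0 ≤ θ) (hθ : θ ≤ 1 / 8) (hη0 : 0 ≤ η) (hη : η ≤ 1 / 1000)
    (hlam : 4 ≤ lam) : F.OneC θ η lam := by
  intro b a hb hb1 ha ha1
  exact scal7 hθ0 hθ hη0 hη hlam hb hb1 ha

/-- A1 -/
theorem rowA1 : F.RowA1 :=
  ⟨1 / 16, by norm_num, fun n hn hn1 => ⟨1 / 1000, by norm_num, 4, by norm_num,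
    fun θ h1 h2 η h3 h4 => onec (by linarith) (by linarith) h3.le h4 le_rfl⟩⟩

end Vale.Agent.P331.H231
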