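import Vale.Agent.P331.H688.QG
import Vale.Agent.P331.H231.Scal

/-!
# The scalar one-coordinate inequality with exponents (16, 8), in the form of `H688.QJ`
-/

namespace Vale.Agent.P331.H231

open Vale.Agent.P331.H688

/-- the scalar inequality `QJ` with exponents `8 + 8` and `8` -/
theorem qj88 {t η lam : ℝ} (ht0 : 0 ≤ t) (ht : t ≤ 1 / 16) (hη0 : 0 ≤ η) (hη : η ≤ 1 / 1200)
    (hlam : 4 ≤ lam) : QJ 8 8 t η lam := by
  intro a b ha ha1 hb hb1
  have h := scal8 ht0 ht hη0 hη hlam ha ha1 hb hb1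
  rw [mul_assoc (η * t), mul_div_assoc t]
  exact h

/-- the kernel (three labels, one coordinate) with exponents `16` and `8` -/
theorem star88 {t η lam : ℝ} (ht0 : 0 ≤ t) (ht : t ≤ 1 / 16) (hη0 : 0 ≤ η) (hη : η ≤ 1 / 1200)
    (hlam : 4 ≤ lam) : Star 8 8 lam t (1 - t) (η * t) :=
  (qj88 ht0 ht hη0 hη hlam).star (by linarith) ht0 (by linarith)

end Vale.Agent.P331.H231
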